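import Mathlib

/-!
P034 for the families generated by the copies of a star forest: the interface lemma L2.

The edge sets of the graphs `σ F0`, `σ` a permutation of the vertices, form a finite family of
edge sets, each with as many edges as `F0`, and there are at most as many of them as there are
copies of `F0` in the complete graph.
-/

namespace Vale.Agent.Lib.Helper9.P034G

open Finset

/-- the copy of `F0` in the complete graph given by a permutation of the vertices -/
def permCopy {n : ℕ} (F0 : SimpleGraph (Fin n)) (σ : Equiv.Perm (Fin n)) :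
    SimpleGraph.Copy F0 (⊤ : SimpleGraph (Fin n)) :=
  ⟨⟨σ, fun {a b} h => by
    rw [SimpleGraph.top_adj]
    exact fun h' => F0.ne_of_adj h (σ.injective h')⟩, σ.injective⟩

theorem permCopy_apply {n : ℕ} (F0 : SimpleGraph (Fin n)) (σ : Equiv.Perm (Fin n)) (a : Fin n) :
    permCopy F0 σ a = σ a := rfl

theorem permCopy_toSubgraph_adj {n : ℕ} (F0 : SimpleGraph (Fin n)) (σ : Equiv.Perm (Fin n))
    (x y : Fin n) :
    (permCopy F0 σ).toSubgraph.Adj x y ↔ (F0.map σ.toEmbedding).Adj x y := by
  rw [SimpleGraph.map_adj]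
  simp [SimpleGraph.Copy.toSubgraph, SimpleGraph.Subgraph.map_adj, Relation.map_apply,
    permCopy_apply]

/-- the subgraph of the complete graph given by a permutation of the vertices -/
def permSub {n : ℕ} (F0 : SimpleGraph (Fin n)) (σ : Equiv.Perm (Fin n)) :
    (⊤ : SimpleGraph (Fin n)).Subgraph :=
  (permCopy F0 σ).toSubgraph

/-- the edge set of a subgraph of the complete graph, as a finite set -/
noncomputable def edgeFs {n : ℕ} (G' : (⊤ : SimpleGraph (Fin n)).Subgraph) :
    Finset (Sym2 (Fin n)) :=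
  open Classical in
  Finset.univ.filter (fun e => e ∈ G'.edgeSet)

theorem coe_edgeFs_permSub {n : ℕ} (F0 : SimpleGraph (Fin n)) (σ : Equiv.Perm (Fin n)) :
    ((edgeFs (permSub F0 σ) : Finset (Sym2 (Fin n))) : Set (Sym2 (Fin n))) =
      (F0.map σ.toEmbedding).edgeSet := by
  classical
  ext e
  induction e using Sym2.ind with
  | _ x y =>
    unfold edgeFs permSub
    rw [Finset.mem_coe, Finset.mem_filter, SimpleGraph.Subgraph.mem_edgeSet,
      SimpleGraph.mem_edgeSet]
    constructor
    · intro h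
      exact (permCopy_toSubgraph_adj F0 σ x y).1 h.2
    · intro h
      exact ⟨Finset.mem_univ _, (permCopy_toSubgraph_adj F0 σ x y).2 h⟩

/-- the family of the edge sets of the graphs `σ F0` -/
noncomputable def family {n : ℕ} (F0 : SimpleGraph (Fin n)) : Finset (Finset (Sym2 (Fin n))) :=
  open Classical in
  (Finset.univ.image (permSub F0)).image edgeFs

theorem mem_family {n : ℕ} (F0 : SimpleGraph (Fin n)) (S : Finset (Sym2 (Fin n))) :
    S ∈ family F0 ↔ ∃ σ : Equiv.Perm (Fin n), edgeFs (permSub F0 σ) = S := by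
  classical
  unfold family
  rw [Finset.mem_image]
  constructor
  · rintro ⟨G', hG', rfl⟩
    rw [Finset.mem_image] at hG'
    obtain ⟨σ, _, rfl⟩ := hG'
    exact ⟨σ, rfl⟩
  · rintro ⟨σ, rfl⟩
    exact ⟨permSub F0 σ, Finset.mem_image_of_mem _ (Finset.mem_univ σ), rfl⟩

theorem card_family_le {n : ℕ} (F0 : SimpleGraph (Fin n)) :
    (family F0).card ≤ (⊤ : SimpleGraph (Fin n)).copyCount F0 := by
  classical
  unfold family
  refine le_trans Finset.card_image_le ?_
  rw [SimpleGraph.copyCount_eq_card_image_copyToSubgraph]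
  refine Finset.card_le_card ?_
  intro G' hG'
  rw [Finset.mem_image] at hG' ⊢
  obtain ⟨σ, _, rfl⟩ := hG'
  exact ⟨permCopy F0 σ, Finset.mem_univ _, rfl⟩

/-- L2: the edge sets of the copies of `F0` in the complete graph. -/
theorem copies_cover {n : ℕ} (F0 : SimpleGraph (Fin n)) :
    ∃ G : Finset (Finset (Sym2 (Fin n))),
      (∀ σ : Equiv.Perm (Fin n), ∃ S ∈ G,
        (S : Set (Sym2 (Fin n))) = (F0.map σ.toEmbedding).edgeSet) ∧
      (∀ S ∈ G, S.card = F0.edgeSet.ncard) ∧
      G.card ≤ (⊤ : SimpleGraph (Fin n)).copyCount F0 := by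
  refine ⟨family F0, ?_, ?_, card_family_le F0⟩
  · intro σ
    exact ⟨edgeFs (permSub F0 σ), (mem_family F0 _).2 ⟨σ, rfl⟩, coe_edgeFs_permSub F0 σ⟩
  · intro S hS
    obtain ⟨σ, rfl⟩ := (mem_family F0 S).1 hS
    rw [← Set.ncard_coe_finset, coe_edgeFs_permSub F0 σ, SimpleGraph.edgeSet_map,
      Set.ncard_image_of_injective _ σ.toEmbedding.sym2Map.injective]

end Vale.Agent.Lib.Helper9.P034G
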