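import Vale.Agent.Lib.P064S.Main
import Vale.Agent.Lib.Helper2.P064U

/-!
# P064 (general hosts): the degrees under the unit hypothesis (twin of D1)

If every subgraph of `H` has expected count at least one at density `q`, then every vertex of `H`
has at most `max ⌈6 n q⌉ ⌊log₂ n⌋` neighbours: apply the hypothesis to the star at the vertex.
-/

namespace Vale.Agent.Lib.Helper9.P064DDegree
open SimpleGraph Finset
open Vale.Agent.Lib.P064S

/-- D1 (twin): under the unit hypothesis at `q`, every degree of `H` is at most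
`max ⌈6 n q⌉ ⌊log₂ n⌋`. -/
theorem degree_le_of_hyp {n : ℕ} (H : SimpleGraph (Fin n)) (q : ℝ) (hq0 : 0 ≤ q)
    (hyp : ∀ F : SimpleGraph (Fin n), F ≤ H →
      1 ≤ ((⊤ : SimpleGraph (Fin n)).copyCount F : ℝ) * q ^ F.edgeSet.ncard)
    (v : Fin n) :
    (H.neighborSet v).ncard ≤ max ⌈6 * (n : ℝ) * q⌉₊ (Nat.log 2 n) := by
  classical
  set d := (H.neighborSet v).ncard with hd
  have hdn : d ≤ n - 1 := deg_le H v
  have hnpos : 0 < n := v.pos
  rcases le_or_gt q 1 with hq1 | hq1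
  swap
  · refine le_trans ?_ (le_max_left _ _)
    have hn0 : (0 : ℝ) ≤ (n : ℝ) := Nat.cast_nonneg n
    have h1 : (n : ℝ) ≤ 6 * (n : ℝ) * q := by nlinarith
    have h2 : n ≤ ⌈6 * (n : ℝ) * q⌉₊ := by
      have h3 := Nat.le_ceil (6 * (n : ℝ) * q)
      exact_mod_cast h1.trans h3
    omega
  by_contra hcon
  rw [not_le, max_lt_iff] at hcon
  obtain ⟨hc1, hc2⟩ := hcon
  have hdpos : 0 < d := lt_of_le_of_lt (Nat.zero_le _) hc1
  have h6 : 6 * (n : ℝ) * q < (d : ℝ) :=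
    lt_of_le_of_lt (Nat.le_ceil _) (by exact_mod_cast hc1)
  have hn2 : n < 2 ^ d := Nat.lt_pow_of_log_lt (by norm_num) hc2
  have hn2' : (n : ℝ) ≤ 2 ^ d := by exact_mod_cast hn2.le
  have hI : ∀ a ∈ ({v} : Finset (Fin n)), ∀ b ∈ ({v} : Finset (Fin n)), ¬ H.Adj a b := by
    intro a ha b hb
    rw [Finset.mem_singleton] at ha hb
    rw [ha, hb]
    exact H.loopless.irrefl v
  have hdeg : ∀ a ∈ ({v} : Finset (Fin n)), (H.neighborSet a).ncard = d := by
    intro a ha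
    rw [Finset.mem_singleton] at ha
    rw [ha]
  have h1 := hyp (meet H {v}) (meet_le H {v})
  have h2 : (⊤ : SimpleGraph (Fin n)).copyCount (meet H {v}) ≤ n * n.choose d := by
    have h := copyCount_meet_le H {v} d hI hdeg
    rw [Finset.card_singleton, Nat.choose_one_right, pow_one] at h
    exact h
  have h3 : d ≤ (meet H {v}).edgeSet.ncard := by
    have h := meet_edges H {v} d hI hdeg
    rw [Finset.card_singleton, one_mul] at h
    exact h
  have h4 : q ^ (meet H {v}).edgeSet.ncard ≤ q ^ d := pow_le_pow_of_le_one hq0 hq1 h3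
  have h5 : (n.choose d : ℝ) ≤ (n : ℝ) ^ d / (d.factorial : ℝ) := Nat.choose_le_pow_div d n
  have hfpos : (0 : ℝ) < (d.factorial : ℝ) := by exact_mod_cast Nat.factorial_pos d
  have hx0 : (0 : ℝ) ≤ (n : ℝ) * q := mul_nonneg (Nat.cast_nonneg _) hq0
  have h7 : (d.factorial : ℝ) ≤ (n : ℝ) * ((n : ℝ) * q) ^ d := by
    have h8 : (1 : ℝ) ≤ (n : ℝ) * ((n : ℝ) ^ d / (d.factorial : ℝ)) * q ^ d := by
      calc (1 : ℝ) ≤ ((⊤ : SimpleGraph (Fin n)).copyCount (meet H {v}) : ℝ) *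
            q ^ (meet H {v}).edgeSet.ncard := h1
        _ ≤ ((n * n.choose d : ℕ) : ℝ) * q ^ (meet H {v}).edgeSet.ncard :=
            mul_le_mul_of_nonneg_right (by exact_mod_cast h2) (pow_nonneg hq0 _)
        _ ≤ ((n * n.choose d : ℕ) : ℝ) * q ^ d :=
            mul_le_mul_of_nonneg_left h4 (Nat.cast_nonneg _)
        _ ≤ (n : ℝ) * ((n : ℝ) ^ d / (d.factorial : ℝ)) * q ^ d := by
            push_cast
            exact mul_le_mul_of_nonneg_right
              (mul_le_mul_of_nonneg_left h5 (Nat.cast_nonneg _)) (pow_nonneg hq0 _)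
    have h9 : (n : ℝ) * ((n : ℝ) ^ d / (d.factorial : ℝ)) * q ^ d =
        (n : ℝ) * ((n : ℝ) * q) ^ d / (d.factorial : ℝ) := by
      rw [mul_pow]
      ring
    rw [h9, le_div_iff₀ hfpos] at h8
    linarith
  have h10 : ((n : ℝ) * q) ^ d ≤ ((d : ℝ) / 6) ^ d := pow_le_pow_left₀ hx0 (by linarith) d
  have h11 : (d.factorial : ℝ) ≤ ((d : ℝ) / 3) ^ d := by
    calc (d.factorial : ℝ) ≤ (n : ℝ) * ((n : ℝ) * q) ^ d := h7
      _ ≤ 2 ^ d * ((d : ℝ) / 6) ^ d :=
          mul_le_mul hn2' h10 (pow_nonneg hx0 _) (by positivity)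
      _ = ((d : ℝ) / 3) ^ d := by
          rw [← mul_pow]
          congr 1
          ring
  have h12 : (d : ℝ) ^ d ≤ Real.exp d * (d.factorial : ℝ) := by
    have h := Vale.Agent.Lib.Helper2.P064U.pow_le_exp_mul_descFactorial d d le_rfl
    rwa [Nat.descFactorial_self] at h
  have hexp : Real.exp (d : ℝ) = Real.exp 1 ^ d := by
    rw [← Real.exp_nat_mul, mul_one]
  have h13 : (d : ℝ) ^ d ≤ (Real.exp 1 * ((d : ℝ) / 3)) ^ d := by
    calc (d : ℝ) ^ d ≤ Real.exp d * (d.factorial : ℝ) := h12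
      _ ≤ Real.exp d * ((d : ℝ) / 3) ^ d :=
          mul_le_mul_of_nonneg_left h11 (Real.exp_pos _).le
      _ = (Real.exp 1 * ((d : ℝ) / 3)) ^ d := by rw [hexp, ← mul_pow]
  have hdpos' : (0 : ℝ) < (d : ℝ) := by exact_mod_cast hdpos
  have h14 : Real.exp 1 * ((d : ℝ) / 3) < (d : ℝ) := by
    have h := Real.exp_one_lt_three
    nlinarith
  have h15 : (Real.exp 1 * ((d : ℝ) / 3)) ^ d < (d : ℝ) ^ d :=
    pow_lt_pow_left₀ h14 (by positivity) (Nat.pos_iff_ne_zero.1 hdpos)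
  linarith

end Vale.Agent.Lib.Helper9.P064DDegree
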