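import Vale.Agent.Lib.P064B.Through
import Vale.Agent.Lib.P064B.Packing
import Vale.Agent.Lib.Helper6.P064Aut
import Vale.Agent.Lib.Helper7.P064M

/-!
# P064 (bounded degree): copies of a connected piece (twin of B4)

Take a largest family `M` of pairwise vertex-disjoint copies of `P` in `H`.  Every copy of `P` in
`H` meets a member of `M`, so it passes through one of the `|M| |V(P)|` vertices of the members;
through each vertex there are at most `|V(P)| D^(|V(P)| - 1)` copies, and `|M|` is bounded by the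
packing lemma.
-/

namespace Vale.Agent.Lib.Helper9.P064Piece
open SimpleGraph Finset

/-- the bound for a finite set consisting of the copies of `P` in `H` -/
theorem card_copies_le {U : Type} [Fintype U] {n : ℕ} (P : SimpleGraph U) (hP : P.Connected)
    (H : SimpleGraph (Fin n)) (D : ℕ) (hD : ∀ v, (H.neighborSet v).ncard ≤ D)
    (q : ℝ) (hq0 : 0 ≤ q) (hq1 : q ≤ 1)
    (hyp : ∀ F : SimpleGraph (Fin n), F ≤ H →
      1 ≤ ((⊤ : SimpleGraph (Fin n)).copyCount F : ℝ) * q ^ F.edgeSet.ncard)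
    (C : Finset H.Subgraph) (hC : ∀ G' : H.Subgraph, G' ∈ C ↔ Nonempty (P ≃g G'.coe)) :
    (C.card : ℝ) ≤ 3 * (Fintype.card U : ℝ) ^ 2 * (D : ℝ) ^ (Fintype.card U - 1) *
      (((⊤ : SimpleGraph (Fin n)).copyCount P : ℝ) * q ^ P.edgeSet.ncard) := by
  classical
  have : Nonempty U := hP.nonempty
  let Fam : Finset (Finset H.Subgraph) := C.powerset.filter
    (fun M => ∀ G₁ ∈ M, ∀ G₂ ∈ M, G₁ ≠ G₂ → Disjoint G₁.verts G₂.verts)
  have hFamne : Fam.Nonempty := by
    refine ⟨∅, ?_⟩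
    rw [Finset.mem_filter, Finset.mem_powerset]
    exact ⟨Finset.empty_subset _, fun G₁ h1 => absurd h1 (Finset.notMem_empty _)⟩
  obtain ⟨M, hMFam, hmax⟩ := Finset.exists_max_image Fam Finset.card hFamne
  have hMsub : M ⊆ C := Finset.mem_powerset.1 (Finset.mem_filter.1 hMFam).1
  have hMdisj : ∀ G₁ ∈ M, ∀ G₂ ∈ M, G₁ ≠ G₂ → Disjoint G₁.verts G₂.verts :=
    (Finset.mem_filter.1 hMFam).2
  have hMiso : ∀ G' ∈ M, Nonempty (P ≃g G'.coe) := fun G' hG' => (hC G').1 (hMsub hG')
  let vs : H.Subgraph → Finset (Fin n) := fun G' => Finset.univ.filter (fun x => x ∈ G'.verts)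
  have hmemvs : ∀ (G' : H.Subgraph) (x : Fin n), x ∈ vs G' ↔ x ∈ G'.verts := by
    intro G' x
    exact ⟨fun h => (Finset.mem_filter.1 h).2, fun h => Finset.mem_filter.2 ⟨Finset.mem_univ _, h⟩⟩
  have hvs : ∀ G' ∈ C, (vs G').card = Fintype.card U := by
    intro G' hG'
    obtain ⟨e⟩ := (hC G').1 hG'
    have h1 : (vs G').card = G'.verts.ncard := by
      rw [← Set.ncard_coe_finset]
      congr 1
      ext x
      rw [Finset.mem_coe]
      exact hmemvs G' x
    rw [h1, ← Nat.card_coe_set_eq, ← Nat.card_eq_fintype_card]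
    exact Nat.card_congr e.toEquiv.symm
  have hvs_ne : ∀ G' ∈ C, ∃ x, x ∈ G'.verts := by
    intro G' hG'
    obtain ⟨e⟩ := (hC G').1 hG'
    obtain ⟨p0⟩ := ‹Nonempty U›
    exact ⟨((e p0 : G'.verts) : Fin n), (e p0).2⟩
  have hcover : C ⊆ M.biUnion
      (fun G₂ => (vs G₂).biUnion (fun x => C.filter (fun G => x ∈ G.verts))) := by
    intro G hG
    by_cases hGM : G ∈ M
    · obtain ⟨x, hx⟩ := hvs_ne G hG
      exact Finset.mem_biUnion.2 ⟨G, hGM, Finset.mem_biUnion.2
        ⟨x, (hmemvs G x).2 hx, Finset.mem_filter.2 ⟨hG, hx⟩⟩⟩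
    · by_contra hcon
      have key : ∀ G₂ ∈ M, Disjoint G.verts G₂.verts := by
        intro G₂ hG₂
        rw [Set.disjoint_left]
        intro x hxG hxG₂
        exact hcon (Finset.mem_biUnion.2 ⟨G₂, hG₂, Finset.mem_biUnion.2
          ⟨x, (hmemvs G₂ x).2 hxG₂, Finset.mem_filter.2 ⟨hG, hxG⟩⟩⟩)
      have hins : insert G M ∈ Fam := by
        rw [Finset.mem_filter, Finset.mem_powerset]
        refine ⟨Finset.insert_subset hG hMsub, ?_⟩
        intro G₁ h1 G₂ h2 hne
        rw [Finset.mem_insert] at h1 h2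
        rcases h1 with rfl | h1
        · rcases h2 with rfl | h2
          · exact absurd rfl hne
          · exact key G₂ h2
        · rcases h2 with rfl | h2
          · exact (key G₁ h1).symm
          · exact hMdisj G₁ h1 G₂ h2 hne
      have h1 := hmax _ hins
      rw [Finset.card_insert_of_notMem hGM] at h1
      omega
  have hthrough : ∀ x : Fin n, (C.filter (fun G => x ∈ G.verts)).card ≤
      Fintype.card U * D ^ (Fintype.card U - 1) := by
    intro x
    have h1 := Vale.Agent.Lib.P064B.copies_through_le P hP H D hD x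
    rw [Nat.subtype_card (C.filter (fun G => x ∈ G.verts))
      (fun G' => by rw [Finset.mem_filter, hC G'])] at h1
    exact h1
  have hcount : C.card ≤
      M.card * (Fintype.card U * (Fintype.card U * D ^ (Fintype.card U - 1))) := by
    calc C.card ≤ (M.biUnion
          (fun G₂ => (vs G₂).biUnion (fun x => C.filter (fun G => x ∈ G.verts)))).card :=
          Finset.card_le_card hcover
      _ ≤ ∑ G₂ ∈ M, ((vs G₂).biUnion (fun x => C.filter (fun G => x ∈ G.verts))).card :=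
          Finset.card_biUnion_le
      _ ≤ ∑ _G₂ ∈ M, (Fintype.card U * (Fintype.card U * D ^ (Fintype.card U - 1))) := by
          apply Finset.sum_le_sum
          intro G₂ hG₂
          calc ((vs G₂).biUnion (fun x => C.filter (fun G => x ∈ G.verts))).card
              ≤ ∑ x ∈ vs G₂, (C.filter (fun G => x ∈ G.verts)).card := Finset.card_biUnion_le
            _ ≤ ∑ _x ∈ vs G₂, (Fintype.card U * D ^ (Fintype.card U - 1)) :=
                Finset.sum_le_sum (fun x _ => hthrough x)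
            _ = Fintype.card U * (Fintype.card U * D ^ (Fintype.card U - 1)) := by
                rw [Finset.sum_const, hvs G₂ (hMsub hG₂), smul_eq_mul]
      _ = M.card * (Fintype.card U * (Fintype.card U * D ^ (Fintype.card U - 1))) := by
          rw [Finset.sum_const, smul_eq_mul]
  have hpack := Vale.Agent.Lib.P064B.packing_le P H q hq0 hq1 hyp M hMiso hMdisj
  have hc : (C.card : ℝ) ≤ (M.card : ℝ) *
      ((Fintype.card U : ℝ) * ((Fintype.card U : ℝ) * (D : ℝ) ^ (Fintype.card U - 1))) := by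
    exact_mod_cast hcount
  have hnn : (0 : ℝ) ≤
      (Fintype.card U : ℝ) * ((Fintype.card U : ℝ) * (D : ℝ) ^ (Fintype.card U - 1)) := by
    positivity
  calc (C.card : ℝ) ≤ (M.card : ℝ) *
        ((Fintype.card U : ℝ) * ((Fintype.card U : ℝ) * (D : ℝ) ^ (Fintype.card U - 1))) := hc
    _ ≤ (3 * ((⊤ : SimpleGraph (Fin n)).copyCount P : ℝ) * q ^ P.edgeSet.ncard) *
        ((Fintype.card U : ℝ) * ((Fintype.card U : ℝ) * (D : ℝ) ^ (Fintype.card U - 1))) :=
        mul_le_mul_of_nonneg_right hpack hnn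
    _ = 3 * (Fintype.card U : ℝ) ^ 2 * (D : ℝ) ^ (Fintype.card U - 1) *
        (((⊤ : SimpleGraph (Fin n)).copyCount P : ℝ) * q ^ P.edgeSet.ncard) := by ring

/-- the unlabelled form of B4 -/
theorem copyCount_piece_le {U : Type} [Fintype U] {n : ℕ} (P : SimpleGraph U) (hP : P.Connected)
    (H : SimpleGraph (Fin n)) (D : ℕ) (hD : ∀ v, (H.neighborSet v).ncard ≤ D)
    (q : ℝ) (hq0 : 0 ≤ q) (hq1 : q ≤ 1)
    (hyp : ∀ F : SimpleGraph (Fin n), F ≤ H →
      1 ≤ ((⊤ : SimpleGraph (Fin n)).copyCount F : ℝ) * q ^ F.edgeSet.ncard) :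
    (H.copyCount P : ℝ) ≤ 3 * (Fintype.card U : ℝ) ^ 2 * (D : ℝ) ^ (Fintype.card U - 1) *
      (((⊤ : SimpleGraph (Fin n)).copyCount P : ℝ) * q ^ P.edgeSet.ncard) := by
  classical
  have h1 : H.copyCount P =
      ((Finset.univ : Finset (Copy P H)).image Copy.toSubgraph).card :=
    copyCount_eq_card_image_copyToSubgraph
  rw [h1]
  apply card_copies_le P hP H D hD q hq0 hq1 hyp
  intro G'
  rw [Finset.mem_image]
  have h := Set.ext_iff.1 (Copy.range_toSubgraph (A := P) (B := H)) G'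
  constructor
  · rintro ⟨c, _, hc⟩
    exact h.1 ⟨c, hc⟩
  · intro hne
    obtain ⟨c, hc⟩ := h.2 hne
    exact ⟨c, Finset.mem_univ _, hc⟩

/-- B4 (twin): labelled copies of a connected piece. -/
theorem piece_le {U : Type} [Fintype U] {n : ℕ} (P : SimpleGraph U) (hP : P.Connected)
    (H : SimpleGraph (Fin n)) (D : ℕ) (hD : ∀ v, (H.neighborSet v).ncard ≤ D)
    (q : ℝ) (hq0 : 0 ≤ q) (hq1 : q ≤ 1)
    (hyp : ∀ F : SimpleGraph (Fin n), F ≤ H →
      1 ≤ ((⊤ : SimpleGraph (Fin n)).copyCount F : ℝ) * q ^ F.edgeSet.ncard) :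
    (H.labelledCopyCount P : ℝ) ≤
      3 * (Fintype.card U : ℝ) ^ 2 * (D : ℝ) ^ (Fintype.card U - 1) *
        (n.descFactorial (Fintype.card U) : ℝ) * q ^ P.edgeSet.ncard := by
  have h1 := copyCount_piece_le P hP H D hD q hq0 hq1 hyp
  have h2 := Vale.Agent.Lib.Helper6.P064Aut.labelled_eq_copyCount_mul_aut H P
  have h3 := Vale.Agent.Lib.Helper6.P064Aut.labelled_eq_copyCount_mul_aut
    (⊤ : SimpleGraph (Fin n)) P
  have h4 := Vale.Agent.Lib.Helper7.P064M.labelled_top (V := Fin n) P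
  rw [Fintype.card_fin] at h4
  have h5 : ((⊤ : SimpleGraph (Fin n)).copyCount P : ℝ) * (Nat.card (P ≃g P) : ℝ) =
      (n.descFactorial (Fintype.card U) : ℝ) := by
    rw [← h4, h3]
    push_cast
    ring
  have hA : (0 : ℝ) ≤ (Nat.card (P ≃g P) : ℝ) := Nat.cast_nonneg _
  rw [h2]
  push_cast
  calc (H.copyCount P : ℝ) * (Nat.card (P ≃g P) : ℝ)
      ≤ (3 * (Fintype.card U : ℝ) ^ 2 * (D : ℝ) ^ (Fintype.card U - 1) *
        (((⊤ : SimpleGraph (Fin n)).copyCount P : ℝ) * q ^ P.edgeSet.ncard)) *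
          (Nat.card (P ≃g P) : ℝ) := mul_le_mul_of_nonneg_right h1 hA
    _ = 3 * (Fintype.card U : ℝ) ^ 2 * (D : ℝ) ^ (Fintype.card U - 1) *
        (((⊤ : SimpleGraph (Fin n)).copyCount P : ℝ) * (Nat.card (P ≃g P) : ℝ)) *
          q ^ P.edgeSet.ncard := by ring
    _ = 3 * (Fintype.card U : ℝ) ^ 2 * (D : ℝ) ^ (Fintype.card U - 1) *
        (n.descFactorial (Fintype.card U) : ℝ) * q ^ P.edgeSet.ncard := by rw [h5]

end Vale.Agent.Lib.Helper9.P064Piece
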